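import Vale.Agent.P323.Z.Color

/-!
# Coloured amalgams and Lemma C
-/

namespace Vale.Agent.P323.H454

open CategoryTheory Vale.Agent.P323.Z

variable {D : Type 1} [Category.{1} D]

/-! ### calculus of partial colourings -/

theorem union_some {x : D} {p q : Col x} {z : Dn x} {c : Bool} (h : Col.union p q z = some c) :
    p z = some c ∨ q z = some c := by
  unfold Col.union at h
  cases hp : p z with
  | none => rw [hp] at h; right; simpa using h
  | some a => rw [hp] at h; left; simpa using h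

theorem le_union_left {x : D} (p q : Col x) : Col.Le p (Col.union p q) := by
  intro z c h
  simp [Col.union, h]

theorem le_union_right {x : D} {p q : Col x} (hc : Col.Compat p q) : Col.Le q (Col.union p q) := by
  intro z c h
  unfold Col.union
  cases hp : p z with
  | none => simpa using h
  | some a =>
    have := hc z a c hp h
    simp [this]

theorem union_le {x : D} {p q r : Col x} (hp : Col.Le p r) (hq : Col.Le q r) :
    Col.Le (Col.union p q) r := by
  intro z c h
  rcases union_some h with h | h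
  · exact hp z c h
  · exact hq z c h

theorem le_antisymm' {x : D} {p q : Col x} (h : Col.Le p q) (h' : Col.Le q p) : p = q := by
  funext z
  cases hp : p z with
  | some c => exact (h z c hp).symm
  | none =>
    cases hq : q z with
    | none => rfl
    | some c => rw [h' z c hq] at hp; cases hp

theorem Compat.of_le {x : D} {p q r : Col x} (hp : Col.Le p r) (hq : Col.Le q r) :
    Col.Compat p q := by
  intro z c c' h h'
  have h1 := hp z c h
  have h2 := hq z c' h'
  rw [h1] at h2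
  exact Option.some.inj h2

theorem Compat.of_le_left {x : D} {p q : Col x} (h : Col.Le p q) : Col.Compat p q :=
  Compat.of_le h (Col.Le.refl q)

theorem Compat.of_le_right {x : D} {p q : Col x} (h : Col.Le q p) : Col.Compat p q :=
  Compat.of_le (Col.Le.refl p) h

theorem Compat.symm {x : D} {p q : Col x} (h : Col.Compat p q) : Col.Compat q p :=
  fun z c c' hp hq => (h z c' c hq hp).symm

theorem Compat.mono {x : D} {p q p' q' : Col x} (h : Col.Compat p' q') (hp : Col.Le p p')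
    (hq : Col.Le q q') : Col.Compat p q :=
  fun z c c' h1 h2 => h z c c' (hp z c h1) (hq z c' h2)

/-! ### smallness -/

theorem Sm.push [TwBase D] {x y : D} (u : x ⟶ y) {p : Col x} (h : p.Sm) : (Col.push u p).Sm := by
  have : Small.{0} {z // p z ≠ none} := h
  let f : {z // p z ≠ none} → {z // Col.push u p z ≠ none} := fun z =>
    ⟨Dn.post u z.1, by rw [Col.push_post]; exact z.2⟩
  have hf : Function.Surjective f := by
    rintro ⟨w, hw⟩
    obtain ⟨c, hc⟩ := Option.ne_none_iff_exists'.1 hw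
    obtain ⟨z, rfl, hz⟩ := (Col.push_eq_some u p w c).1 hc
    exact ⟨⟨z, by rw [hz]; exact Option.some_ne_none c⟩, rfl⟩
  exact small_of_surjective hf

theorem Sm.pull [TwBase D] {x y : D} (u : x ⟶ y) {q : Col y} (h : q.Sm) : (Col.pull u q).Sm := by
  have : Small.{0} {z // q z ≠ none} := h
  let f : {z // Col.pull u q z ≠ none} → {z // q z ≠ none} := fun z => ⟨Dn.post u z.1, z.2⟩
  have hf : Function.Injective f := by
    rintro ⟨z, hz⟩ ⟨w, hw⟩ h
    have := Dn.post_injective u (congrArg Subtype.val h)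
    exact Subtype.ext this
  exact small_of_injective hf

theorem Sm.union {x : D} {p q : Col x} (hp : p.Sm) (hq : q.Sm) : (Col.union p q).Sm := by
  have h1 : Small.{0} {z // p z ≠ none} := hp
  have h2 : Small.{0} {z // q z ≠ none} := hq
  let f : {z // Col.union p q z ≠ none} → {z // p z ≠ none} ⊕ {z // q z ≠ none} := fun z => by
    classical
    exact if h : p z.1 ≠ none then Sum.inl ⟨z.1, h⟩ else Sum.inr ⟨z.1, fun h' => by
      obtain ⟨c, hc⟩ := Option.ne_none_iff_exists'.1 z.2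
      rcases union_some hc with hc | hc
      · exact h (by rw [hc]; exact Option.some_ne_none c)
      · rw [h'] at hc; cases hc⟩
  have hf : Function.Injective f := by
    rintro ⟨z, hz⟩ ⟨w, hw⟩ h
    apply Subtype.ext
    show z = w
    simp only [f] at h
    split_ifs at h with h1 h2
    · exact congrArg Subtype.val (Sum.inl.inj h)
    · exact congrArg Subtype.val (Sum.inr.inj h)
  exact small_of_injective hf

theorem Sm.of_le {x : D} {p q : Col x} (h : Col.Le p q) (hq : q.Sm) : p.Sm := by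
  have h2 : Small.{0} ({z | q z ≠ none} : Set (Dn x)) := hq
  have : {z | p z ≠ none} ⊆ ({z | q z ≠ none} : Set (Dn x)) := by
    intro z hz
    obtain ⟨c, hc⟩ := Option.ne_none_iff_exists'.1 hz
    show q z ≠ none
    rw [h z c hc]; exact Option.some_ne_none c
  exact small_subset this

/-! ### stages -/

theorem mem_ex2 [TwBase D] {x y x' y' : D} (f : x ⟶ y) (g : x' ⟶ y') :
    ∃ i : Ordinal.{0}, Mem i f ∧ Mem i g := by
  obtain ⟨i, hi⟩ := TwBase.mem_ex f
  obtain ⟨j, hj⟩ := TwBase.mem_ex g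
  exact ⟨max i j, TwBase.mem_mono (le_max_left _ _) hi, TwBase.mem_mono (le_max_right _ _) hj⟩

/-! ### the coloured amalgam -/

section

variable [Tw D]

/-- the colouring of the amalgam -/
noncomputable def amCol (i : Ordinal.{0}) {z x y : D} (l : z ⟶ x) (r : z ⟶ y) (hl : Mem i l)
    (hr : Mem i r) (p : Col x) (q : Col y) : Col (Tw.am i l r hl hr) :=
  Col.union (Col.push (Tw.jl i l r hl hr) p) (Col.push (Tw.jr i l r hl hr) q)

variable {i : Ordinal.{0}} {z x y : D} {l : z ⟶ x} {r : z ⟶ y} {hl : Mem i l}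
  {hr : Mem i r} {p : Col x} {q : Col y}

theorem amCol_some {w : Dn (Tw.am i l r hl hr)} {c : Bool} (h : amCol i l r hl hr p q w = some c) :
    (∃ y', Dn.post (Tw.jl i l r hl hr) y' = w ∧ p y' = some c) ∨
      ∃ y', Dn.post (Tw.jr i l r hl hr) y' = w ∧ q y' = some c := by
  rcases union_some h with h | h
  · exact Or.inl ((Col.push_eq_some _ _ _ _).1 h)
  · exact Or.inr ((Col.push_eq_some _ _ _ _).1 h)

theorem amCol_sm (hp : p.Sm) (hq : q.Sm) : (amCol i l r hl hr p q).Sm :=
  Sm.union (Sm.push _ hp) (Sm.push _ hq)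

theorem le_jl : Col.Le p (Col.pull (Tw.jl i l r hl hr) (amCol i l r hl hr p q)) := by
  intro w c h
  refine le_union_left _ _ _ _ ?_
  rw [Col.push_post]
  exact h

/-- If a map into the left leg and a map into the right leg become equal, they come from `z`. -/
theorem post_eq {w : Dn x} {w' : Dn y}
    (h : Dn.post (Tw.jl i l r hl hr) w = Dn.post (Tw.jr i l r hl hr) w') :
    ∃ v : Dn z, Dn.post l v = w ∧ Dn.post r v = w' := by
  obtain ⟨a, f⟩ := w
  obtain ⟨a', g⟩ := w'
  simp only [Dn.post, Sigma.mk.injEq] at h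
  obtain ⟨rfl, h⟩ := h
  obtain ⟨k, hk1, hk2⟩ := (Tw.K1 i l r hl hr).2 f g (eq_of_heq h)
  exact ⟨⟨a, k⟩, by simp [Dn.post, hk1], by simp [Dn.post, hk2]⟩

theorem post_jl_jr (w : Dn z) :
    Dn.post (Tw.jl i l r hl hr) (Dn.post l w) = Dn.post (Tw.jr i l r hl hr) (Dn.post r w) := by
  rw [← Dn.post_comp, ← Dn.post_comp, Tw.K0]

theorem le_jr (hc : Col.Compat (Col.pull l p) (Col.pull r q)) :
    Col.Le q (Col.pull (Tw.jr i l r hl hr) (amCol i l r hl hr p q)) := by
  intro w c h
  refine le_union_right ?_ _ _ ?_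
  · intro v c c' h1 h2
    obtain ⟨w1, hw1, hp⟩ := (Col.push_eq_some _ _ _ _).1 h1
    obtain ⟨w2, hw2, hq⟩ := (Col.push_eq_some _ _ _ _).1 h2
    obtain ⟨v, rfl, rfl⟩ := post_eq (hw1.trans hw2.symm)
    exact hc v c c' hp hq
  · rw [Col.push_post]
    exact h

theorem cons_jl (hc : Col.Le (Col.pull r q) (Col.pull l p)) :
    Col.pull (Tw.jl i l r hl hr) (amCol i l r hl hr p q) = p := by
  refine le_antisymm' ?_ le_jl
  intro w c h
  rcases amCol_some h with ⟨w', hw', hp⟩ | ⟨w', hw', hq⟩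
  · rw [← Dn.post_injective _ hw']
    exact hp
  · obtain ⟨v, rfl, rfl⟩ := post_eq hw'.symm
    exact hc v c hq

theorem cons_jr (hc : Col.Le (Col.pull l p) (Col.pull r q)) :
    Col.pull (Tw.jr i l r hl hr) (amCol i l r hl hr p q) = q := by
  refine le_antisymm' ?_ (le_jr (Compat.of_le_left hc))
  intro w c h
  rcases amCol_some h with ⟨w', hw', hp⟩ | ⟨w', hw', hq⟩
  · obtain ⟨v, rfl, rfl⟩ := post_eq hw'
    exact hc v c hp
  · rw [← Dn.post_injective _ hw']
    exact hq

end

/-- The coloured amalgam. -/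
theorem amalgam [Tw D] {z x y : D} (l : z ⟶ x) (r : z ⟶ y) (p : Col x) (q : Col y) (hp : p.Sm)
    (hq : q.Sm) (hc : Col.Compat (Col.pull l p) (Col.pull r q)) :
    ∃ (W : CObj D) (j₁ : x ⟶ W.x) (j₂ : y ⟶ W.x), IsPB l r j₁ j₂ ∧
      Col.Le p (Col.pull j₁ W.p) ∧ Col.Le q (Col.pull j₂ W.p) ∧
      (Col.Le (Col.pull r q) (Col.pull l p) → Col.pull j₁ W.p = p) ∧
      (Col.Le (Col.pull l p) (Col.pull r q) → Col.pull j₂ W.p = q) ∧
      ∀ w c, W.p w = some c → (∃ w', Dn.post j₁ w' = w ∧ p w' = some c) ∨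
        ∃ w', Dn.post j₂ w' = w ∧ q w' = some c := by
  obtain ⟨i, hl, hr⟩ := mem_ex2 l r
  exact ⟨⟨Tw.am i l r hl hr, amCol i l r hl hr p q, amCol_sm hp hq⟩, Tw.jl i l r hl hr,
    Tw.jr i l r hl hr, Tw.K1 i l r hl hr, le_jl, le_jr hc, cons_jl, cons_jr,
    fun w c h => amCol_some h⟩

/-- Amalgam of two morphisms of the coloured category over a common object of `D`:
`f : z ⟶ X.x`, `g : z ⟶ Y.x` with compatible colours; if the colours of `Y` pulled back to `z` are
contained in those of `X`, then `X ⟶ W` is conservative. -/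
theorem amalgamC [Tw D] {z : D} {X Y : CObj D} (f : z ⟶ X.x) (g : z ⟶ Y.x)
    (hc : Col.Le (Col.pull g Y.p) (Col.pull f X.p)) :
    ∃ (W : CObj D) (j₁ : X ⟶ W) (j₂ : Y ⟶ W), IsPB f g j₁.u j₂.u ∧ Cons j₁ := by
  obtain ⟨W, j₁, j₂, h, h1, h2, h3, -⟩ :=
    amalgam f g X.p Y.p X.sm Y.sm (Compat.of_le_right hc)
  exact ⟨W, ⟨j₁, h1⟩, ⟨j₂, h2⟩, h, h3 hc⟩

theorem Cons.comp {X Y Z : CObj D} {f : X ⟶ Y} {g : Y ⟶ Z} (hf : Cons f) (hg : Cons g) :
    Cons (f ≫ g) := by
  unfold Cons at *
  rw [comp_u, Col.pull_comp, hg, hf]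

theorem Cons.id (X : CObj D) : Cons (𝟙 X) := by
  unfold Cons
  rw [id_u, Col.pull_id]

/-- the amalgam of a conservative map with any map: the opposite map is conservative -/
theorem amalgam_cons [Tw D] {X Y Z : CObj D} (f : X ⟶ Y) (g : X ⟶ Z) (hg : Cons g) :
    ∃ (W : CObj D) (j₁ : Y ⟶ W) (j₂ : Z ⟶ W), f ≫ j₁ = g ≫ j₂ ∧ IsPB f.u g.u j₁.u j₂.u ∧
      Cons j₁ := by
  obtain ⟨W, j₁, j₂, h, h'⟩ := amalgamC (X := Y) (Y := Z) f.u g.u
    (by rw [show Col.pull g.u Z.p = X.p from hg]; exact CHom.le f)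
  exact ⟨W, j₁, j₂, by ext; exact h.1, h, h'⟩

/-- A stable family of extensions of `X`. -/
structure Stable {X : CObj D} (R : ∀ {W : CObj D}, (X ⟶ W) → Prop) : Prop where
  mono : ∀ {W W' : CObj D} (v : X ⟶ W) (w : W ⟶ W'), R v → R (v ≫ w)
  loc : ∀ {W : CObj D} (v : X ⟶ W), (∀ {W' : CObj D} (w : W ⟶ W'),
    ∃ (W'' : CObj D) (w' : W' ⟶ W''), R (v ≫ w ≫ w')) → R v

/-- LEMMA C -/
theorem lemmaC [Tw D] {X : CObj D} {R : ∀ {W : CObj D}, (X ⟶ W) → Prop} (hR : Stable R)
    {W W' : CObj D} (v : X ⟶ W) (w : W ⟶ W') (hw : Cons w) (h : R (v ≫ w)) : R v := by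
  refine hR.loc v fun {V} w₁ => ?_
  obtain ⟨T, j₁, j₂, hj, -, -⟩ := amalgam_cons w₁ w hw
  refine ⟨T, j₁, ?_⟩
  rw [hj, ← Category.assoc]
  exact hR.mono _ _ h

end Vale.Agent.P323.H454
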