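import Vale.Agent.P323.Z9.EE
import Vale.Agent.P323.H845.Chain
import Vale.Agent.P323.H811.FC

/-!
# Stabilization of the filter `EE`
-/

namespace Vale.Agent.P323.Z

open CategoryTheory

variable {D : Type 1} [Category.{1} D]

/-- Small partial colourings. -/
def SCol (x : D) : Type 1 := {r : Col x // r.Sm}

instance SCol.instPartialOrder (x : D) : PartialOrder (SCol x) where
  le p q := Col.Le p.1 q.1
  le_refl p := Col.Le.refl _
  le_trans _ _ _ h h' := Col.Le.trans h h'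
  le_antisymm _ _ h h' := Subtype.ext (Col9.le_antisymm h h')

/-- Small chains of small colourings have upper bounds. -/
theorem SCol.smallChains (x : D) : H845.SmallChains.{1, 0} (SCol x) := by
  classical
  intro c hc hs
  let r : Col x := fun z => if h : ∃ p ∈ c, p.1 z ≠ none then h.choose.1 z else none
  have hr : ∀ p ∈ c, Col.Le p.1 r := by
    intro p hp z a hz
    have h : ∃ p ∈ c, p.1 z ≠ none := ⟨p, hp, by rw [hz]; exact Option.some_ne_none a⟩
    show (if h : ∃ p ∈ c, p.1 z ≠ none then h.choose.1 z else none) = some a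
    rw [dif_pos h]
    obtain ⟨h1, h2⟩ := h.choose_spec
    set p' := h.choose with hp'
    obtain ⟨b, hb⟩ := Option.ne_none_iff_exists'.1 h2
    by_cases he : p = p'
    · rw [← he]; exact hz
    · rcases hc hp h1 he with hle | hle
      · exact hle z a hz
      · have := hle z b hb
        rw [hz] at this
        rw [hb, this]
  have hsm : Col.Sm r := by
    unfold Col.Sm
    have key : ∀ z : {z // r z ≠ none}, ∃ w : Σ p : c, {z // p.1.1 z ≠ none}, w.2.1 = z.1 := by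
      rintro ⟨z, hz⟩
      by_cases h : ∃ p ∈ c, p.1 z ≠ none
      · obtain ⟨p, hp, hp'⟩ := h
        exact ⟨⟨⟨p, hp⟩, ⟨z, hp'⟩⟩, rfl⟩
      · exact absurd (dif_neg h) hz
    choose f hf using key
    have : ∀ p : c, Small.{0} {z // p.1.1 z ≠ none} := fun p => p.1.2
    refine small_of_injective (f := f) ?_
    intro z z' h
    apply Subtype.ext
    rw [← hf z, ← hf z', h]
  exact ⟨⟨r, hsm⟩, hr⟩

namespace SEq

variable [Tw D] {B : CObj D}

/-- Stabilization, with the intersection property of `EE` as an input. -/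
theorem exists_stab_of_inter (E : SEq B)
    (hinter : ∀ {r : Col B.x}, Col.Le B.p r → Col.Sm r → ∀ {x y z : D} {f : x ⟶ B.x}
      {g : y ⟶ B.x} {p : z ⟶ x} {q : z ⟶ y}, IsPB p q f g → E.EE r f → E.EE r g →
        E.EE r (p ≫ f))
    (r₁ : Col B.x) (h₁ : Col.Le B.p r₁) (hs₁ : Col.Sm r₁) :
    ∃ r₀ : Col B.x, Col.Le r₁ r₀ ∧ Col.Sm r₀ ∧
      ∀ r : Col B.x, Col.Le r₀ r → Col.Sm r → ∀ {z : D} (s : z ⟶ B.x), E.EE r s → E.EE r₀ s := by
  let Φ : SCol B.x → Set (Dn B.x) := fun r => {z | E.EE r.1 z.2}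
  obtain ⟨r, hr, hr'⟩ := H845.exists_stable (S := Dn B.x) (SCol.smallChains B.x) Φ ⟨r₁, hs₁⟩
    (fun r r' _ h z hz => EE.mono_col h hz) (by
      intro c hne hc hq
      have hcomp : ∀ r ∈ c, ∀ r' ∈ c, ∃ r'' ∈ c, r ≤ r'' ∧ r' ≤ r'' := by
        intro r hr r' hr'
        by_cases h : r = r'
        · exact ⟨r, hr, le_rfl, h ▸ le_rfl⟩
        · rcases hc hr hr' h with h | h
          · exact ⟨r', hr', h, le_rfl⟩
          · exact ⟨r, hr, le_rfl, h⟩
      obtain ⟨i, -, hi⟩ := fc (b := B.x) (fun x f => ∃ r ∈ c, E.EE r.1 f)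
        { one := by
            obtain ⟨r, hr⟩ := hne
            exact ⟨r, hr, EE.one r.1⟩
          up := by
            rintro x y f g hfg ⟨r, hr, h⟩
            exact ⟨r, hr, EE.up h hfg⟩
          inter := by
            rintro x y z f g p q hpb ⟨r, hr, h⟩ ⟨r', hr', h'⟩
            obtain ⟨r'', hr'', h1, h2⟩ := hcomp r hr r' hr'
            exact ⟨r'', hr'', hinter (h₁.trans (hq r'' hr'')) r''.2 hpb (EE.mono_col h1 h)
              (EE.mono_col h2 h')⟩ }
      refine ⟨{z | Mem i z.2 ∧ ∃ r ∈ c, E.EE r.1 z.2}, ?_, fun g hg => hg.2, ?_⟩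
      · have := TwBase.small (D := D) i
        refine small_of_injective (β := {f : Σ x y : D, (x ⟶ y) // Mem i f.2.2})
          (f := fun z => ⟨⟨z.1.1, B.x, z.1.2⟩, z.2.1⟩) ?_
        rintro ⟨⟨z, f⟩, hz⟩ ⟨⟨z', f'⟩, hz'⟩ h
        simp only [Subtype.mk.injEq, Sigma.mk.injEq] at h
        obtain ⟨rfl, h⟩ := h
        have h' := eq_of_heq h
        simp only [Sigma.mk.injEq, true_and] at h'
        have h'' := eq_of_heq h'
        subst h''
        rfl
      · intro r hr hG r' hr' z hz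
        obtain ⟨y, e, he, hme, hth⟩ := hi z.2 ⟨r', hr', hz⟩
        exact EE.up (hG (show (⟨y, e⟩ : Dn B.x) ∈ _ from ⟨hme, he⟩)) hth)
  refine ⟨r.1, hr, r.2, fun r' h hs z s hE => ?_⟩
  have := hr' ⟨r', hs⟩ h
  have h2 : (⟨z, s⟩ : Dn B.x) ∈ Φ ⟨r', hs⟩ := hE
  rw [this] at h2
  exact h2

/-- Stabilization above any small colouring `r₁`. -/
theorem exists_stab (E : SEq B) (r₁ : Col B.x) (h₁ : Col.Le B.p r₁) (hs₁ : Col.Sm r₁) :
    ∃ r₀ : Col B.x, Col.Le r₁ r₀ ∧ Col.Sm r₀ ∧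
      ∀ r : Col B.x, Col.Le r₀ r → Col.Sm r → ∀ {z : D} (s : z ⟶ B.x), E.EE r s → E.EE r₀ s :=
  E.exists_stab_of_inter (fun h hs _ _ _ _ _ _ _ hpb hf hg => EE.inter h hs hf hg hpb) r₁ h₁ hs₁

/-- `EE` at a small colouring is generated by a stage. -/
theorem exists_gen (E : SEq B) {r : Col B.x} (h : Col.Le B.p r) (hs : Col.Sm r) :
    ∃ i : Ordinal.{0}, Mem i (𝟙 B.x) ∧ ∀ {z : D} (s : z ⟶ B.x), E.EE r s →
      ∃ (y : D) (e : y ⟶ B.x), E.EE r e ∧ Mem i e ∧ Thru e s :=
  fc (b := B.x) (fun _ f => E.EE r f)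
    { one := EE.one r
      up := fun hfg hf => EE.up hf hfg
      inter := fun hpb hf hg => EE.inter h hs hf hg hpb }

end SEq

end Vale.Agent.P323.Z
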